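import Vale.Agent.P075.Defs
import Vale.Agent.P075.Main

namespace Vale.Agent.Results.P075.DyadicBounded

open Vale.Agent.P075

/-- Q2: the dyadic triangular Hilbert form is bounded on `L^3 × L^3 × L^3`, uniformly in the
set of scales and in the coefficients. The first conjunct records that each inner sum over
triples is a genuine finite sum. -/
theorem result : ∃ C : ℝ, ∀ (S : Finset ℤ) (ε : ℤ → ℝ) (F0 F1 F2 : ℝ × ℝ → ℝ),
    (∀ k ∈ S, |ε k| ≤ 1) → Admissible F0 → Admissible F1 → Admissible F2 →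
    (∀ k : ℤ, (Function.support fun n : xorZero =>
      localForm F0 F1 F2 k n.1.1 n.1.2.1 n.1.2.2).Finite) ∧
    |dyadicForm S ε F0 F1 F2| ≤ C * (normL3 F0 * normL3 F1 * normL3 F2) :=
  ⟨54, fun S ε _ F1 F2 hε h0 h1 h2 =>
    ⟨fun k => finite_support F1 F2 h0 k, form_bound S ε hε h0 h1 h2⟩⟩

end Vale.Agent.Results.P075.DyadicBounded
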